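import Vale.Agent.P072.Classical

set_option autoImplicit false

namespace Vale.Agent.Results.P072.FullPermanence

open Vale.Agent.P072

/-- **The permanence theorem for weakly reversible mass-action systems, constant and
time-dependent rates.**  For every finite weakly reversible network on `d ≥ 1` species and every
positive stoichiometric class:
(1) for every choice of positive rate constants the mass-action system is permanent on the class;
(2) for every `ε > 0` there is a compact subset of the class that eventually contains every
solution starting in the class, for all measurable time-dependent rates with values in
`[ε, ε⁻¹]` (with global existence, uniqueness and positivity of the solutions). -/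
theorem result : ∀ (d : ℕ), 1 ≤ d → ∀ G : ReactionNetwork d, G.WeaklyReversible →
    ∀ c : Fin d → ℝ, (∀ i, 0 < c i) →
      (∀ k : (Fin d → ℕ) × (Fin d → ℕ) → ℝ, (∀ r ∈ G.reactions, 0 < k r) → G.Permanent k c) ∧
      (∀ ε : ℝ, 0 < ε → G.StronglyPermanent ε c) := by
  intro d hd G hG c hc
  exact ⟨fun k hk => permanent hd hG hk hc, fun ε hε => strongly_permanent hd hG hε hc⟩

end Vale.Agent.Results.P072.FullPermanence
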