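import Vale.Agent.P072.Classical

set_option autoImplicit false

namespace Vale.Agent.Results.P072.Permanence

open Vale.Agent.P072

/-- **The permanence theorem for weakly reversible mass-action systems.**  For every finite weakly
reversible network on `d ≥ 1` species, every choice of positive rate constants and every positive
stoichiometric class, the mass-action system is permanent on that class. -/
theorem result : ∀ (d : ℕ), 1 ≤ d → ∀ G : ReactionNetwork d, G.WeaklyReversible →
    ∀ k : (Fin d → ℕ) × (Fin d → ℕ) → ℝ, (∀ r ∈ G.reactions, 0 < k r) →
      ∀ c : Fin d → ℝ, (∀ i, 0 < c i) → G.Permanent k c := by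
  intro d hd G hG k hk c hc
  exact permanent hd hG hk hc

end Vale.Agent.Results.P072.Permanence
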